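import Vale.Agent.P171.Main

/-!
Problem P171: there is a stable tempered radial pair potential on `ℝ³` with a phase transition.
-/

namespace Vale.Agent.Results.P171.RadialTransition

open Vale.Agent.P171

/-- There is a Borel measurable, bounded, stable, tempered radial pair potential `φ` on `ℝ³`
(even with `φ(r) ≤ 0` for `r ≥ 1`) which has a phase transition in the sense of condition (a):
for some `β > 0` the function `z ↦ Π(β,z)` is not differentiable at some point. -/
theorem result : ∃ φ : ℝ → ℝ, Measurable φ ∧ LocBdd φ ∧ Stable φ ∧ Tempered φ ∧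
    (∃ M, ∀ r, |φ r| ≤ M) ∧ (∀ r, 1 ≤ r → φ r ≤ 0) ∧ HasPhaseTransition φ := by
  obtain ⟨φ, h1, ⟨M, hM⟩, h3, h4, h5⟩ := main
  refine ⟨φ, h1, fun a b _ => ⟨M, fun r _ _ => hM r⟩, h4, ⟨1, 1, 1, one_pos, one_pos, one_pos,
    fun r hr => (h3 r hr).trans ?_⟩, ⟨M, hM⟩, h3, h5⟩
  have : (0 : ℝ) < r := by linarith
  positivity

end Vale.Agent.Results.P171.RadialTransition
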